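import Vale.Agent.P254.H325.StZ

/-!
P254, block Z' (helper115): the diagonal case of the matrix inequality (DD) with clock `r` gives
`n + ½ log det A + ∑ w (β_i) ≤ Ent`.
-/

namespace Vale.Agent.P254.H115

open Matrix Filter Topology Set
open Vale.Agent.P254.L
open Vale.Agent.P254.Z546 (e1 e2 dd1_e_nonneg contact_ineq)
open Vale.Agent.P254.Z325 (cc cc_pos cmax_pos)

variable {n : ℕ}

/-- The inequality (DD) for `(A, B, T)` and diagonal `D = diag d`, in frames `L A Lᵀ = 1`,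
`B = Lᵀ diag β L`; the clock is `r`, and `p ^ 3` is the squared skewness. -/
def DDdiag (F : Profile) (r : ℝ → ℝ) (A B : Mat n) (T : Ten n) : Prop :=
  ∀ (L : Mat n) (β : Vec n), IsUnit L → L * A * Lᵀ = 1 → B = Lᵀ * Matrix.diagonal β * L →
    (∀ i, β i ∈ Ioo (0 : ℝ) 1) → ∀ d : Vec n, (∀ i, 0 < d i) →
      ∑ a, r (β a) * ∑ i, ∑ j, d i * d j * frT L T a i j ^ 2
        ≤ ∑ i, F.p (β i) ^ 3 * r (β i) * d i ^ 2

/-- truncated clock -/
noncomputable def rr (r : ℝ → ℝ) (R x : ℝ) : ℝ := min (r x) R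

section
variable {F : Profile} (W : WProfile F) {r : ℝ → ℝ}

theorem frT_perm (L : Mat n) {T : Ten n} (hT : TSymm T) (i j a : Fin n) :
    frT L T i j a = frT L T a i j := by
  unfold frT
  -- `∑ p q k, L i p L j q L a k T p q k = ∑ k p q, L a k L i p L j q T k p q`
  have e : ∀ p q k, L i p * L j q * L a k * T p q k = L a k * L i p * L j q * T k p q := by
    intro p q k
    rw [show T p q k = T k p q by rw [hT.1 k p q, hT.2 p k q]]
    ring
  simp only [e]
  calc ∑ p, ∑ q, ∑ k, L a k * L i p * L j q * T k p q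
      = ∑ p, ∑ k, ∑ q, L a k * L i p * L j q * T k p q :=
        Finset.sum_congr rfl fun p _ => Finset.sum_comm
    _ = ∑ k, ∑ p, ∑ q, L a k * L i p * L j q * T k p q := Finset.sum_comm

/-- the sum is negative -/
theorem sum_neg (hn : 0 < n) {ε : ℝ} (hε : 0 < ε) {r0 C R : ℝ} (hr0 : 0 < r0)
    (hr : ∀ x ∈ Ioo (0 : ℝ) 1, r0 ≤ r x)
    (hC : ∀ x ∈ Ioo (0 : ℝ) 1, r x * W.w1 x * Real.sqrt (1 - x) ≤ C)
    (hR : r0 ≤ R) (hRC : 2 * C < ε * R) {β : Vec n}
    (hβ : ∀ i, β i ∈ Ioo (0 : ℝ) 1) {T : Ten n}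
    (hP : ∑ a, r (β a) * ∑ i, ∑ j, Real.sqrt (cc W (β i)) * Real.sqrt (cc W (β j)) * T a i j ^ 2
      ≤ ∑ i, F.p (β i) ^ 3 * r (β i) * Real.sqrt (cc W (β i)) ^ 2)
    (hT : ∀ i j a, T i j a = T a i j) :
    ∑ a : Fin n, rr r R (β a) * (∑ i, ∑ j, (1 / 2 * (1 / 2
        - β i * β j * dd1 W.w1 W.w2 (β i) (β j)
        - ε * (β i * β j * dd1 e1 e2 (β i) (β j)))) * T i j a ^ 2
      - (W.w1 (β a) + ε * e1 (β a)) * (1 - β a)) < 0 := by
  have hrr0 : ∀ i, 0 < rr r R (β i) := fun i => by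
    unfold rr
    exact lt_min (hr0.trans_le (hr _ (hβ i))) (hr0.trans_le hR)
  have hrr1 : ∀ i, rr r R (β i) ≤ r (β i) := fun i => min_le_left _ _
  have h1 : ∀ a, (∑ i, ∑ j, (1 / 2 * (1 / 2
        - β i * β j * dd1 W.w1 W.w2 (β i) (β j)
        - ε * (β i * β j * dd1 e1 e2 (β i) (β j)))) * T i j a ^ 2)
      ≤ ∑ i, ∑ j, Real.sqrt (cc W (β i)) * Real.sqrt (cc W (β j)) * T a i j ^ 2 := by
    intro a
    refine Finset.sum_le_sum fun i _ => Finset.sum_le_sum fun j _ => ?_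
    rw [hT i j a]
    refine mul_le_mul_of_nonneg_right ?_ (sq_nonneg _)
    have h3 := W.cij _ (hβ i) _ (hβ j)
    have h4 : 0 ≤ ε / 2 * (β i * β j * dd1 e1 e2 (β i) (β j)) := by
      have h5 := dd1_e_nonneg (hβ i).2 (hβ j).2
      have h6 := (hβ i).1
      have h7 := (hβ j).1
      positivity
    unfold cc
    linarith
  have hcc : ∀ a, 0 ≤ ∑ i, ∑ j, Real.sqrt (cc W (β i)) * Real.sqrt (cc W (β j)) * T a i j ^ 2 :=
    fun a => Finset.sum_nonneg fun i _ => Finset.sum_nonneg fun j _ => by positivity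
  have h2 : ∑ a, rr r R (β a) * ∑ i, ∑ j,
      Real.sqrt (cc W (β i)) * Real.sqrt (cc W (β j)) * T a i j ^ 2
      ≤ ∑ i, r (β i) * W.w1 (β i) * (1 - β i) := by
    calc _ ≤ ∑ a, r (β a) * ∑ i, ∑ j,
          Real.sqrt (cc W (β i)) * Real.sqrt (cc W (β j)) * T a i j ^ 2 :=
          Finset.sum_le_sum fun a _ => mul_le_mul_of_nonneg_right (hrr1 a) (hcc a)
      _ ≤ _ := hP
      _ = _ := by
          refine Finset.sum_congr rfl fun i _ => ?_
          rw [Real.sq_sqrt (cc_pos W (hβ i)).le]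
          have := W.ode _ (hβ i)
          unfold cc
          calc F.p (β i) ^ 3 * r (β i) * (1 / 4 - β i ^ 2 * W.w2 (β i) / 2)
              = r (β i) * ((1 / 4 - β i ^ 2 * W.w2 (β i) / 2) * F.p (β i) ^ 3) := by ring
            _ = r (β i) * (W.w1 (β i) * (1 - β i)) := by rw [this]
            _ = _ := by ring
  have h3 : ∑ a : Fin n, rr r R (β a) * (∑ i, ∑ j, (1 / 2 * (1 / 2
        - β i * β j * dd1 W.w1 W.w2 (β i) (β j)
        - ε * (β i * β j * dd1 e1 e2 (β i) (β j)))) * T i j a ^ 2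
      - (W.w1 (β a) + ε * e1 (β a)) * (1 - β a))
      ≤ ∑ a, (r (β a) * W.w1 (β a) * (1 - β a)
        - rr r R (β a) * ((W.w1 (β a) + ε * e1 (β a)) * (1 - β a))) := by
    calc _ ≤ ∑ a : Fin n, (rr r R (β a) * (∑ i, ∑ j,
          Real.sqrt (cc W (β i)) * Real.sqrt (cc W (β j)) * T a i j ^ 2)
          - rr r R (β a) * ((W.w1 (β a) + ε * e1 (β a)) * (1 - β a))) := by
          refine Finset.sum_le_sum fun a _ => ?_
          rw [mul_sub]
          exact sub_le_sub_right (mul_le_mul_of_nonneg_left (h1 a) (hrr0 a).le) _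
      _ ≤ _ := by
          rw [Finset.sum_sub_distrib, Finset.sum_sub_distrib]
          exact sub_le_sub_right h2 _
  refine h3.trans_lt ?_
  have : Nonempty (Fin n) := ⟨⟨0, hn⟩⟩
  refine Finset.sum_neg (fun a _ => ?_) Finset.univ_nonempty
  have h5 := St625.e1_mul' (hβ a).2
  have h6 : 0 < Real.sqrt (1 - β a) := Real.sqrt_pos.2 (by linarith [(hβ a).2])
  have h6' : Real.sqrt (1 - β a) ^ 2 = 1 - β a := Real.sq_sqrt (by linarith [(hβ a).2])
  have h7 : ε * e1 (β a) * (1 - β a) = ε * (Real.sqrt (1 - β a) / 2) := by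
    rw [← h5]; ring
  have hw1 := W.w1_pos _ (hβ a)
  have hb := (hβ a).2
  have e : r (β a) * W.w1 (β a) * (1 - β a)
      - rr r R (β a) * ((W.w1 (β a) + ε * e1 (β a)) * (1 - β a))
      = (r (β a) - rr r R (β a)) * W.w1 (β a) * (1 - β a)
        - rr r R (β a) * (ε * (Real.sqrt (1 - β a) / 2)) := by
    rw [← h7]; ring
  rw [e]
  rcases le_or_gt (r (β a)) R with hle | hgt
  · have e2 : rr r R (β a) = r (β a) := min_eq_left hle
    rw [e2, sub_self, zero_mul, zero_mul, zero_sub]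
    have : 0 < r (β a) := hr0.trans_le (hr _ (hβ a))
    have : 0 < r (β a) * (ε * (Real.sqrt (1 - β a) / 2)) := by positivity
    linarith
  · have e2 : rr r R (β a) = R := min_eq_right hgt.le
    rw [e2]
    have hR0 : 0 < R := hr0.trans_le hR
    have h8 : (r (β a) - R) * W.w1 (β a) * (1 - β a)
        ≤ r (β a) * W.w1 (β a) * (1 - β a) := by
      have : 0 ≤ R * W.w1 (β a) * (1 - β a) := by
        have : 0 < 1 - β a := by linarith
        positivity
      nlinarith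
    have h9 : r (β a) * W.w1 (β a) * (1 - β a) ≤ C * Real.sqrt (1 - β a) := by
      calc r (β a) * W.w1 (β a) * (1 - β a)
          = (r (β a) * W.w1 (β a) * Real.sqrt (1 - β a)) * Real.sqrt (1 - β a) := by
            rw [← h6']; ring_nf; rw [Real.sqrt_sq h6.le]
        _ ≤ C * Real.sqrt (1 - β a) := mul_le_mul_of_nonneg_right (hC _ (hβ a)) h6.le
    have h10 : C * Real.sqrt (1 - β a) < R * (ε * (Real.sqrt (1 - β a) / 2)) := by
      calc C * Real.sqrt (1 - β a) = (2 * C) * (Real.sqrt (1 - β a) / 2) := by ring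
        _ < (ε * R) * (Real.sqrt (1 - β a) / 2) :=
            mul_lt_mul_of_pos_right hRC (by positivity)
        _ = _ := by ring
    linarith

end

/-- **the Z-step**: (DD) for all tilts gives `n + ½ log det A + ∑ w (β_i) ≤ Ent` -/
theorem ent_ge {F : Profile} (W : WProfile F) {r : ℝ → ℝ} {r0 C : ℝ} (hr0 : 0 < r0)
    (hr : ∀ x ∈ Ioo (0 : ℝ) 1, r0 ≤ r x)
    (hC : ∀ x ∈ Ioo (0 : ℝ) 1, r x * W.w1 x * Real.sqrt (1 - x) ≤ C)
    {D : TiltData n} (E : EntData D)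
    (hP : ∀ B : Mat n, B.PosDef → ∀ c : Vec n, DDdiag F r (D.A B c) B (D.T B c))
    {B : Mat n} (hB : B.PosDef) (c : Vec n) {L : Mat n} {β : Vec n}
    (hF : Fr (D.A B c) B L β) :
    (n : ℝ) + 1 / 2 * Real.log (D.A B c).det + ∑ i, W.w (β i) ≤ E.Ent B c := by
  refine Z325.ent_of_GG' W E hB c (fun ε hε η hη => ?_) hF
  rcases Nat.eq_zero_or_pos n with hn | hn
  · subst hn
    have h := GG_lower E W hB c (ε := ε) hε.le
    simp only [Matrix.det_isEmpty, Real.log_one, mul_zero, sub_zero, neg_zero] at h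
    linarith
  by_contra hlt
  push Not at hlt
  set R : ℝ := max r0 (2 * |C| / ε + 1) with hRdef
  have hR : r0 ≤ R := le_max_left _ _
  have hRC : 2 * C < ε * R := by
    have h1 : 2 * |C| / ε + 1 ≤ R := le_max_right _ _
    have h2 : ε * (2 * |C| / ε + 1) ≤ ε * R := mul_le_mul_of_nonneg_left h1 hε.le
    have h3 : ε * (2 * |C| / ε + 1) = 2 * |C| + ε := by field_simp
    have h4 := le_abs_self C
    linarith
  obtain ⟨B', c', hB', -, hc', hf'⟩ :=
    exists_min E W hε.le hη (q0 := r0) (Λ := R) hr0 hR hB hlt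
  obtain ⟨L', β', hF'⟩ := exists_Fr (D.posA B' hB'.posSemidef c') hB'.isHermitian
  have hβ : ∀ i, β' i ∈ Ioo (0 : ℝ) 1 := hF'.beta_mem hB' c'
  set q : Vec n := fun i => rr r R (β' i) with hq
  have hqr0 : ∀ i, r0 ≤ q i := fun i => le_min (hr _ (hβ i)) hR
  have hq0 : ∀ i, 0 ≤ q i := fun i => hr0.le.trans (hqr0 i)
  have hsm : ∀ s : ℝ, s • (D.A B' c')⁻¹ = L'ᵀ * Matrix.diagonal (fun _ => s) * L' := by
    intro s
    rw [hF'.inv_A, ← Matrix.smul_one_eq_diagonal, Matrix.mul_smul, Matrix.mul_one,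
      Matrix.smul_mul]
  have hf'' := hf' (L'ᵀ * Matrix.diagonal q * L') (by
      rw [hsm, ← Matrix.sub_mul, ← Matrix.mul_sub, Matrix.diagonal_sub, psd_conj_iff hF'.isUnit,
        Matrix.posSemidef_diagonal_iff]
      intro i
      exact sub_nonneg.2 (hqr0 i)) (by
      rw [hsm, ← Matrix.sub_mul, ← Matrix.mul_sub, Matrix.diagonal_sub, psd_conj_iff hF'.isUnit,
        Matrix.posSemidef_diagonal_iff]
      intro i
      exact sub_nonneg.2 (min_le_right _ _))
  have h1 := contact_ineq E W hB' hF' (r := q) hq0 hc' hf''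
  have h2 := hP B' hB' c' L' β' hF'.isUnit hF'.hA hF'.hB hβ
    (fun i => Real.sqrt (cc W (β' i))) (fun i => Real.sqrt_pos.2 (cc_pos W (hβ i)))
  exact absurd h1 (not_le.2 (sum_neg W hn hε hr0 hr hC hR hRC hβ h2
    (fun i j a => frT_perm L' (D.T_symm B' c') i j a)))

/-- `(DD)` on the diagonal, for all nice measures -/
def StDDdiag (F : Profile) (r : ℝ → ℝ) : Prop :=
  ∀ (n : ℕ) (D : TiltData n) (B : Mat n), B.PosDef → ∀ c : Vec n,
    DDdiag F r (D.A B c) B (D.T B c)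

/-- (DD) and the profile of `w` give `StZ` -/
theorem stZ {F : Profile} (W : WProfile F) {r : ℝ → ℝ} {r0 C : ℝ} (hr0 : 0 < r0)
    (hr : ∀ x ∈ Ioo (0 : ℝ) 1, r0 ≤ r x)
    (hC : ∀ x ∈ Ioo (0 : ℝ) 1, r x * W.w1 x * Real.sqrt (1 - x) ≤ C)
    (hX : StDDdiag F r) : StZ := by
  intro n D E B hB c
  obtain ⟨L, β, hF⟩ := exists_Fr (D.posA B hB.posSemidef c) hB.isHermitian
  have h := ent_ge W hr0 hr hC E (hX n D) hB c hF
  have hβ : ∀ i, β i ∈ Ioo (0 : ℝ) 1 := hF.beta_mem hB c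
  have h2 : 0 ≤ ∑ i, W.w (β i) := Finset.sum_nonneg fun i _ => W.w_nonneg _ (hβ i)
  linarith

/-- the clock `1 / w'` -/
theorem stZ_clock {F : Profile} (W : WProfile F)
    (hX : StDDdiag F fun x => 1 / W.w1 x) : StZ := by
  have hw1m : 0 < W.w1max := by
    have h : (1 / 2 : ℝ) ∈ Ioo (0 : ℝ) 1 := ⟨by norm_num, by norm_num⟩
    exact (W.w1_pos _ h).trans_le (W.w1_le _ h)
  refine stZ W (r0 := 1 / W.w1max) (C := 1) (by positivity) (fun x hx => ?_) (fun x hx => ?_) hX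
  · exact one_div_le_one_div_of_le (W.w1_pos _ hx) (W.w1_le _ hx)
  · rw [one_div, inv_mul_cancel₀ (W.w1_pos _ hx).ne', one_mul, Real.sqrt_le_one]
    linarith [hx.1]

end Vale.Agent.P254.H115
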